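import Vale.Agent.Lib.P078.ProModelDefs
import Vale.Agent.Lib.P078.Approx
import Vale.Agent.Lib.P078.HF.A3b

namespace Vale.Agent.Lib.P078

open scoped InnerProductSpace Matrix.Norms.L2Operator
open ContinuousLinearMap Filter Topology

variable {G : Type} [Group G]

/-! ### M1a : basis vectors and translations -/



lemma gDelta_self (g : G) : (gDelta g : G → ℂ) g = 1 := by
  classical
  unfold gDelta
  rw [lp.single_apply, Pi.single_eq_same]

lemma gDelta_ne {g x : G} (h : x ≠ g) : (gDelta g : G → ℂ) x = 0 := by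
  classical
  unfold gDelta
  rw [lp.single_apply, Pi.single_eq_of_ne h]

lemma gOmega_norm : ‖(gOmega : GHilb G)‖ = 1 := by
  classical
  unfold gOmega gDelta
  rw [lp.norm_single (by norm_num)]
  exact norm_one

lemma inner_gDelta (a : G) (v : GHilb G) : ⟪gDelta a, v⟫_ℂ = (v : G → ℂ) a := by
  classical
  unfold gDelta
  rw [lp.inner_single_left]
  simp

lemma gLam_delta (g a : G) : gLam g (gDelta a) = gDelta (g * a) := by
  apply lp.ext
  funext x
  rw [gLam_apply]
  by_cases hx : x = g * a
  · have hx' : g⁻¹ * x = a := by rw [hx, inv_mul_cancel_left]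
    rw [hx', gDelta_self, hx, gDelta_self]
  · have hx' : g⁻¹ * x ≠ a := fun h => hx (by rw [← h, mul_inv_cancel_left])
    rw [gDelta_ne hx', gDelta_ne hx]

lemma gRho_delta (g a : G) : gRho g (gDelta a) = gDelta (a * g⁻¹) := by
  apply lp.ext
  funext x
  rw [gRho_apply]
  by_cases hx : x = a * g⁻¹
  · have hx' : x * g = a := by rw [hx, inv_mul_cancel_right]
    rw [hx', gDelta_self, hx, gDelta_self]
  · have hx' : x * g ≠ a := fun h => hx (by rw [← h, mul_inv_cancel_right])
    rw [gDelta_ne hx', gDelta_ne hx]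

omit [Group G] in
open Classical in
lemma taskModM1a_single (g : G) (c : ℂ) : lp.single 2 g c = c • gDelta g := by
  unfold gDelta
  rw [← lp.single_smul, smul_eq_mul, mul_one]

open Classical in
lemma gOp_ext (x y : GHilb G →L[ℂ] GHilb G) (h : ∀ g, x (gDelta g) = y (gDelta g)) :
    x = y := by
  apply ContinuousLinearMap.ext
  intro v
  have hv : HasSum (fun g : G => lp.single 2 g ((v : G → ℂ) g)) v :=
    lp.hasSum_single (by norm_num) v
  have hx := x.hasSum hv
  have hy := y.hasSum hv
  have hxy : (fun g : G => x (lp.single 2 g ((v : G → ℂ) g)))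
      = fun g : G => y (lp.single 2 g ((v : G → ℂ) g)) := by
    funext g
    rw [taskModM1a_single, map_smul, map_smul, h g]
  rw [hxy] at hx
  exact hx.unique hy

lemma gLam_norm (g : G) (v : GHilb G) : ‖gLam g v‖ = ‖v‖ :=
  gWlin_norm (Equiv.mulLeft g⁻¹) v

lemma gRho_norm (g : G) (v : GHilb G) : ‖gRho g v‖ = ‖v‖ :=
  gWlin_norm (Equiv.mulRight g) v

end Vale.Agent.Lib.P078
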