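import Vale.Agent.Lib.P078.ProModelDefs
import Vale.Agent.Lib.P078.Approx
import Vale.Agent.Lib.P078.HF.A3b
import Vale.Agent.Lib.P078.ProMod.M1a

namespace Vale.Agent.Lib.P078

open scoped InnerProductSpace Matrix.Norms.L2Operator
open ContinuousLinearMap Filter Topology

variable {G : Type} [Group G]

/-! ### M1b : the two regular representations -/

lemma gLam_one : gLam (1 : G) = 1 := by
  apply ContinuousLinearMap.ext
  intro v
  apply lp.ext
  funext x
  rw [gLam_apply, inv_one, one_mul]
  rfl

lemma gRho_one : gRho (1 : G) = 1 := by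
  apply ContinuousLinearMap.ext
  intro v
  apply lp.ext
  funext x
  rw [gRho_apply, mul_one]
  rfl

lemma gLam_mul (a b : G) : gLam a * gLam b = gLam (a * b) := by
  apply ContinuousLinearMap.ext
  intro v
  apply lp.ext
  funext x
  rw [mul_apply_eq_comp, gLam_apply, gLam_apply, gLam_apply, mul_inv_rev, mul_assoc]

lemma gRho_mul (a b : G) : gRho a * gRho b = gRho (a * b) := by
  apply ContinuousLinearMap.ext
  intro v
  apply lp.ext
  funext x
  rw [mul_apply_eq_comp, gRho_apply, gRho_apply, gRho_apply, mul_assoc]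

lemma gLam_comm_gRho (a b : G) : gLam a * gRho b = gRho b * gLam a := by
  apply ContinuousLinearMap.ext
  intro v
  apply lp.ext
  funext x
  rw [mul_apply_eq_comp, mul_apply_eq_comp, gLam_apply, gRho_apply,
    gRho_apply, gLam_apply, mul_assoc]

omit [Group G] in
/-- an isometric operator with a right inverse has that inverse as adjoint -/
lemma taskModM1b_star (u w : GHilb G →L[ℂ] GHilb G) (hiso : ∀ v : GHilb G, ‖u v‖ = ‖v‖)
    (huw : u * w = 1) : star u = w := by
  have h1 : star u * u = 1 := by
    rw [ContinuousLinearMap.star_eq_adjoint]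
    exact (ContinuousLinearMap.norm_map_iff_adjoint_comp_self u).1 hiso
  calc star u = star u * (u * w) := by rw [huw, mul_one]
    _ = (star u * u) * w := by rw [mul_assoc]
    _ = w := by rw [h1, one_mul]

lemma gLam_star (g : G) : star (gLam g) = gLam g⁻¹ := by
  apply taskModM1b_star (gLam g) (gLam g⁻¹) (gLam_norm g)
  rw [gLam_mul, mul_inv_cancel, gLam_one]

lemma gRho_star (g : G) : star (gRho g) = gRho g⁻¹ := by
  apply taskModM1b_star (gRho g) (gRho g⁻¹) (gRho_norm g)
  rw [gRho_mul, mul_inv_cancel, gRho_one]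

lemma mem_gM_iff (x : GHilb G →L[ℂ] GHilb G) :
    x ∈ gM G ↔ ∀ g : G, gRho g * x = x * gRho g := by
  unfold gM
  rw [taskG_mem_centralizer]
  constructor
  · intro h g
    exact (h (gRho g) (Set.mem_range_self g)).1
  · intro h b hb
    obtain ⟨g, rfl⟩ := hb
    refine ⟨h g, ?_⟩
    rw [gRho_star]
    exact h g⁻¹

lemma gLam_mem_gM (g : G) : gLam g ∈ gM G := by
  rw [mem_gM_iff]
  intro g'
  exact (gLam_comm_gRho g g').symm

end Vale.Agent.Lib.P078
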