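import Vale.Agent.Lib.P078.ProModelDefs
import Vale.Agent.Lib.P078.Approx
import Vale.Agent.Lib.P078.HF.A3b
import Vale.Agent.Lib.P078.ProMod.M1b

namespace Vale.Agent.Lib.P078

open scoped InnerProductSpace Matrix.Norms.L2Operator
open ContinuousLinearMap Filter Topology

variable {G : Type} [Group G]

/-! ### M3 : density of the finite sums of translations -/

theorem gM_dense {x : GHilb G →L[ℂ] GHilb G} (hx : x ∈ gM G) {η : ℝ} (hη : 0 < η) :
    ∃ F : Finset G, ‖(x - ∑ g ∈ F, (x gOmega : G → ℂ) g • gLam g) gOmega‖ ≤ η := by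
  classical
  have _hx := hx
  obtain ⟨w, hw⟩ : ∃ w : GHilb G, w = x gOmega := ⟨_, rfl⟩
  have hsum : HasSum (fun g : G => lp.single 2 g ((w : G → ℂ) g)) w :=
    lp.hasSum_single (by norm_num) w
  rw [HasSum, Metric.tendsto_nhds] at hsum
  obtain ⟨F, hF⟩ := (hsum η hη).exists
  refine ⟨F, ?_⟩
  have hterm : ∀ g : G,
      ((w : G → ℂ) g • gLam g) gOmega = lp.single 2 g ((w : G → ℂ) g) := by
    intro g
    have h1 : gLam g (gOmega : GHilb G) = gDelta g := by
      have h0 := gLam_delta g (1 : G)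
      rw [mul_one] at h0
      exact h0
    rw [smul_apply, h1]
    unfold gDelta
    rw [← lp.single_smul, smul_eq_mul, mul_one]
  have happ : (x - ∑ g ∈ F, (x gOmega : G → ℂ) g • gLam g) gOmega
      = w - ∑ g ∈ F, lp.single 2 g ((w : G → ℂ) g) := by
    rw [sub_apply, sum_apply, ← hw]
    congr 1
    apply Finset.sum_congr rfl
    intro g _
    exact hterm g
  rw [happ, ← dist_eq_norm, dist_comm]
  exact le_of_lt hF

end Vale.Agent.Lib.P078
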