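import Vale.Agent.Lib.P078.ProModelDefs
import Vale.Agent.Lib.P078.Approx
import Vale.Agent.Lib.P078.HF.A3b
import Vale.Agent.Lib.P078.ProMod.M1b

namespace Vale.Agent.Lib.P078

open scoped InnerProductSpace Matrix.Norms.L2Operator
open ContinuousLinearMap Filter Topology

variable {G : Type} [Group G]

/-! ### M2 : coefficients, separating vector, trace -/

lemma gM_apply_delta {x : GHilb G →L[ℂ] GHilb G} (hx : x ∈ gM G) (g : G) :
    x (gDelta g) = gRho g⁻¹ (x gOmega) := by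
  have h1 : gDelta g = gRho g⁻¹ (gOmega : GHilb G) := by
    have h : gRho g⁻¹ (gDelta (1 : G)) = gDelta (1 * g⁻¹⁻¹) := gRho_delta g⁻¹ (1 : G)
    rw [inv_inv, one_mul] at h
    exact h.symm
  have h2 := (mem_gM_iff x).1 hx g⁻¹
  have h3 : gRho g⁻¹ (x gOmega) = x (gRho g⁻¹ gOmega) :=
    congrArg (fun T : GHilb G →L[ℂ] GHilb G => T gOmega) h2
  rw [h1]
  exact h3.symm

lemma gM_coeff {x : GHilb G →L[ℂ] GHilb G} (hx : x ∈ gM G) (g a : G) :
    (x (gDelta g) : G → ℂ) a = (x gOmega : G → ℂ) (a * g⁻¹) := by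
  rw [gM_apply_delta hx g, gRho_apply]

theorem gM_separating : IsSeparating (gM G) gOmega := by
  intro x hx h0
  apply gOp_ext
  intro g
  rw [gM_apply_delta hx g, h0, map_zero]
  rfl

omit [Group G] in
open Classical in
lemma taskModM2_single (v : GHilb G) (g : G) :
    lp.single 2 g ((v : G → ℂ) g) = (v : G → ℂ) g • gDelta g := by
  unfold gDelta
  rw [← lp.single_smul, smul_eq_mul, mul_one]

lemma gM_hasSum_apply {x : GHilb G →L[ℂ] GHilb G} (hx : x ∈ gM G) (v : GHilb G) (a : G) :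
    HasSum (fun g : G => (x gOmega : G → ℂ) (a * g⁻¹) * (v : G → ℂ) g)
      ((x v : G → ℂ) a) := by
  classical
  have h1 : HasSum (fun g : G => lp.single 2 g ((v : G → ℂ) g)) v :=
    lp.hasSum_single (by norm_num) v
  have h2 := h1.mapL ((innerSL ℂ (gDelta a)).comp x)
  have h3 : ((innerSL ℂ (gDelta a)).comp x) v = (x v : G → ℂ) a := inner_gDelta a (x v)
  have h4 : (fun g : G => ((innerSL ℂ (gDelta a)).comp x) (lp.single 2 g ((v : G → ℂ) g)))
      = fun g : G => (x gOmega : G → ℂ) (a * g⁻¹) * (v : G → ℂ) g := by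
    funext g
    show ⟪gDelta a, x (lp.single 2 g ((v : G → ℂ) g))⟫_ℂ = _
    rw [taskModM2_single, map_smul, inner_smul_right, inner_gDelta, gM_coeff hx]
    ring
  rw [h3] at h2
  rw [← h4]
  exact h2

lemma gM_star_omega {x : GHilb G →L[ℂ] GHilb G} (hx : x ∈ gM G) (g : G) :
    (star x gOmega : G → ℂ) g = (starRingEnd ℂ) ((x gOmega : G → ℂ) g⁻¹) := by
  have h1 : ⟪(gOmega : GHilb G), x (gDelta g)⟫_ℂ = (x (gDelta g) : G → ℂ) 1 :=
    inner_gDelta 1 (x (gDelta g))
  rw [← inner_gDelta g (star x gOmega), ContinuousLinearMap.star_eq_adjoint,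
    ContinuousLinearMap.adjoint_inner_right, ← inner_conj_symm (x (gDelta g)) gOmega, h1,
    gM_coeff hx, one_mul]

lemma gM_conj_coeff {x : GHilb G →L[ℂ] GHilb G} (hx : x ∈ gM G) (a : G)
    (hc : gLam a * x = x * gLam a) (g : G) :
    (x gOmega : G → ℂ) (a⁻¹ * g * a) = (x gOmega : G → ℂ) g := by
  have h1 : gLam a (gOmega : GHilb G) = gDelta a := by
    have h : gLam a (gDelta (1 : G)) = gDelta (a * 1) := gLam_delta a (1 : G)
    rw [mul_one] at h
    exact h
  have h2 : gLam a (x gOmega) = x (gDelta a) := by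
    have h : gLam a (x gOmega) = x (gLam a gOmega) :=
      congrArg (fun T : GHilb G →L[ℂ] GHilb G => T gOmega) hc
    rw [h1] at h
    exact h
  have h3 := gM_coeff hx a (g * a)
  rw [← h2, gLam_apply, mul_inv_cancel_right, ← mul_assoc] at h3
  exact h3

theorem gM_trace : IsTraceVector (gM G) gOmega := by
  refine ⟨gOmega_norm, fun x hx y hy => ?_⟩
  have h1 : ⟪(gOmega : GHilb G), x (y gOmega)⟫_ℂ = (x (y gOmega) : G → ℂ) 1 :=
    inner_gDelta 1 _
  have h2 : ⟪(gOmega : GHilb G), y (x gOmega)⟫_ℂ = (y (x gOmega) : G → ℂ) 1 :=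
    inner_gDelta 1 _
  rw [h1, h2]
  have hs1 := gM_hasSum_apply hx (y gOmega) 1
  have hs2 := gM_hasSum_apply hy (x gOmega) 1
  have hs3 := (Equiv.inv G).hasSum_iff.2 hs2
  have hfun : ((fun g : G => (y gOmega : G → ℂ) (1 * g⁻¹) * (x gOmega : G → ℂ) g) ∘
      (Equiv.inv G)) =
      (fun g : G => (x gOmega : G → ℂ) (1 * g⁻¹) * (y gOmega : G → ℂ) g) := by
    funext g
    show (y gOmega : G → ℂ) (1 * (g⁻¹)⁻¹) * (x gOmega : G → ℂ) g⁻¹ = _
    rw [inv_inv, one_mul, one_mul]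
    ring
  rw [hfun] at hs3
  exact hs1.unique hs3

end Vale.Agent.Lib.P078
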