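import Vale.Agent.Lib.P078.ProModelDefs
import Vale.Agent.Lib.P078.Approx
import Vale.Agent.Lib.P078.HF.A3b
import Vale.Agent.Lib.P078.ProMod.M1b

namespace Vale.Agent.Lib.P078

open scoped InnerProductSpace Matrix.Norms.L2Operator
open ContinuousLinearMap Filter Topology

variable {Γ S : Type} [Group Γ] [MulAction Γ S]

/-! ### M4 : the operators bZ and bU -/



lemma bZ_mul (h h' : S →₀ ZMod 2) : bZ (Γ := Γ) h * bZ h' = bZ (h + h') := by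
  have e : (⟨h, 1⟩ : BGrp Γ S) * ⟨h', 1⟩ = ⟨h + h', 1⟩ := by
    apply BGrp.ext
    · show h + bAct (1 : Γ) h' = h + h'
      rw [bAct_one]
    · show (1 : Γ) * 1 = 1
      exact mul_one 1
  unfold bZ
  rw [gLam_mul, e]

lemma bZ_zero : bZ (Γ := Γ) (0 : S →₀ ZMod 2) = 1 := by
  have h1 : (⟨0, 1⟩ : BGrp Γ S) = 1 := rfl
  unfold bZ
  rw [h1, gLam_one]

lemma bZ_star (h : S →₀ ZMod 2) : star (bZ (Γ := Γ) h) = bZ h := by
  have e : (⟨h, 1⟩ : BGrp Γ S)⁻¹ = ⟨h, 1⟩ := by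
    apply BGrp.ext
    · show bAct (1 : Γ)⁻¹ h = h
      rw [inv_one, bAct_one]
    · show (1 : Γ)⁻¹ = 1
      exact inv_one
  unfold bZ
  rw [gLam_star, e]

lemma bZ_mem_gM (h : S →₀ ZMod 2) : bZ (Γ := Γ) h ∈ gM (BGrp Γ S) := by
  unfold bZ
  exact gLam_mem_gM _

lemma bU_one : bU (S := S) (1 : Γ) = 1 := by
  have h1 : (⟨0, 1⟩ : BGrp Γ S) = 1 := rfl
  unfold bU
  rw [h1, gLam_one]

lemma bU_mul (γ β : Γ) : bU (S := S) (γ * β) = bU γ * bU β := by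
  have e : (⟨0, γ⟩ : BGrp Γ S) * ⟨0, β⟩ = ⟨0, γ * β⟩ := by
    apply BGrp.ext
    · show (0 : S →₀ ZMod 2) + bAct γ 0 = 0
      rw [bAct_zero, add_zero]
    · show γ * β = γ * β
      rfl
  unfold bU
  rw [gLam_mul, e]

lemma bU_star (γ : Γ) : star (bU (S := S) γ) = bU γ⁻¹ := by
  have e : (⟨0, γ⟩ : BGrp Γ S)⁻¹ = ⟨0, γ⁻¹⟩ := by
    apply BGrp.ext
    · show bAct γ⁻¹ (0 : S →₀ ZMod 2) = 0
      rw [bAct_zero]
    · show γ⁻¹ = γ⁻¹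
      rfl
  unfold bU
  rw [gLam_star, e]

lemma bU_mem_gM (γ : Γ) : bU (S := S) γ ∈ gM (BGrp Γ S) := by
  unfold bU
  exact gLam_mem_gM _

lemma bU_bZ (γ : Γ) (h : S →₀ ZMod 2) : bU γ * bZ h * star (bU γ) = bZ (bAct γ h) := by
  have e : (⟨0, γ⟩ : BGrp Γ S) * ⟨h, 1⟩ * (⟨0, γ⟩ : BGrp Γ S)⁻¹ = ⟨bAct γ h, 1⟩ := by
    apply BGrp.ext
    · show (0 : S →₀ ZMod 2) + bAct γ h + bAct (γ * 1) (bAct γ⁻¹ 0) = bAct γ h
      rw [bAct_zero, bAct_zero, zero_add, add_zero]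
    · show γ * 1 * γ⁻¹ = 1
      rw [mul_one, mul_inv_cancel]
  unfold bU bZ
  rw [gLam_star, gLam_mul, gLam_mul, e]

lemma gLam_eq_bZ_bU (g : BGrp Γ S) : gLam g = bZ g.fst * bU g.snd := by
  have e : (⟨g.fst, 1⟩ : BGrp Γ S) * ⟨0, g.snd⟩ = g := by
    apply BGrp.ext
    · show g.fst + bAct (1 : Γ) 0 = g.fst
      rw [bAct_zero, add_zero]
    · show 1 * g.snd = g.snd
      rw [one_mul]
  unfold bZ bU
  rw [gLam_mul, e]

lemma mem_bA_iff (x : GHilb (BGrp Γ S) →L[ℂ] GHilb (BGrp Γ S)) :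
    x ∈ bA Γ S ↔ x ∈ gM (BGrp Γ S) ∧ ∀ h : S →₀ ZMod 2, bZ h * x = x * bZ h := by
  unfold bA gM
  rw [taskG_mem_centralizer, taskG_mem_centralizer]
  constructor
  · intro H
    refine ⟨fun b hb => H b (Or.inl hb), fun h => (H (bZ h) (Or.inr ⟨h, rfl⟩)).1⟩
  · rintro ⟨H1, H2⟩ b hb
    rcases hb with hb | ⟨h, rfl⟩
    · exact H1 b hb
    · refine ⟨H2 h, ?_⟩
      rw [bZ_star]
      exact H2 h

lemma bZ_mem_bA (h : S →₀ ZMod 2) : bZ (Γ := Γ) h ∈ bA Γ S := by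
  rw [mem_bA_iff]
  refine ⟨bZ_mem_gM h, fun h' => ?_⟩
  rw [bZ_mul, bZ_mul, add_comm]

lemma bA_le_gM : bA Γ S ≤ gM (BGrp Γ S) := by
  intro x hx
  exact ((mem_bA_iff x).1 hx).1

end Vale.Agent.Lib.P078
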