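import Vale.Agent.Lib.P078.ProModelDefs
import Vale.Agent.Lib.P078.Approx
import Vale.Agent.Lib.P078.HF.A3b

namespace Vale.Agent.Lib.P078

open scoped InnerProductSpace Matrix.Norms.L2Operator
open ContinuousLinearMap Filter Topology

variable {Γ S : Type} [Group Γ] [MulAction Γ S]

/-! ### M6a : the finite groups bSupp J -/

lemma mem_bSupp (J : Finset S) (h : S →₀ ZMod 2) : h ∈ bSupp J ↔ ∀ s, s ∉ J → h s = 0 := by
  unfold bSupp
  rw [Finset.mem_finsupp_iff]
  constructor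
  · rintro ⟨h1, -⟩ s hs
    by_contra hne
    exact hs (h1 (Finsupp.mem_support_iff.mpr hne))
  · intro h1
    refine ⟨fun s hs => ?_, fun s _ => Finset.mem_univ _⟩
    by_contra hs'
    exact (Finsupp.mem_support_iff.mp hs) (h1 s hs')

lemma card_bSupp (J : Finset S) : (bSupp J).card = 2 ^ J.card := by
  unfold bSupp
  rw [Finset.card_finsupp]
  simp [Finset.card_univ, ZMod.card]

lemma bSupp_add {J : Finset S} {h h' : S →₀ ZMod 2} (hh : h ∈ bSupp J) (hh' : h' ∈ bSupp J) :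
    h + h' ∈ bSupp J := by
  rw [mem_bSupp] at hh hh' ⊢
  intro s hs
  rw [Finsupp.add_apply, hh s hs, hh' s hs, add_zero]

lemma bSupp_zero (J : Finset S) : (0 : S →₀ ZMod 2) ∈ bSupp J := by
  rw [mem_bSupp]
  intro s _
  rfl

lemma bSupp_mono {J J' : Finset S} (hJ : J ⊆ J') : bSupp J ⊆ bSupp J' := by
  intro h hh
  rw [mem_bSupp] at hh ⊢
  intro s hs
  exact hh s (fun hsJ => hs (hJ hsJ))

lemma bAct_mem_bSupp (J : BLev Γ S) (γ : Γ) {h : S →₀ ZMod 2} (hh : h ∈ bSupp J.1) :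
    bAct γ h ∈ bSupp J.1 := by
  rw [mem_bSupp] at hh ⊢
  intro s hs
  rw [bAct_apply]
  refine hh _ (fun hmem => hs ?_)
  have h1 := J.2 γ _ hmem
  rwa [smul_inv_smul] at h1

lemma bAct_single (γ : Γ) (s : S) :
    bAct γ (Finsupp.single s (1 : ZMod 2)) = Finsupp.single (γ • s) 1 := by
  classical
  refine Finsupp.ext (fun s' => ?_)
  rw [bAct_apply, Finsupp.single_apply, Finsupp.single_apply]
  by_cases hs : s = γ⁻¹ • s'
  · have h1 : γ • s = s' := by rw [hs, smul_inv_smul]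
    rw [if_pos hs, if_pos h1]
  · have h1 : γ • s ≠ s' := by
      intro h2
      exact hs (by rw [← h2, inv_smul_smul])
    rw [if_neg hs, if_neg h1]

lemma bFun_add_self (h : S →₀ ZMod 2) : h + h = 0 := by
  refine Finsupp.ext (fun s => ?_)
  have h1 : h s + h s = 0 := CharTwo.add_self_eq_zero (h s)
  simpa using h1

end Vale.Agent.Lib.P078
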