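import Vale.Agent.Lib.P078.ProModelDefs
import Vale.Agent.Lib.P078.Approx
import Vale.Agent.Lib.P078.HF.A3b
import Vale.Agent.Lib.P078.ProMod.M2
import Vale.Agent.Lib.P078.ProMod.M4
import Vale.Agent.Lib.P078.ProMod.M6a

namespace Vale.Agent.Lib.P078

open scoped InnerProductSpace Matrix.Norms.L2Operator
open ContinuousLinearMap Filter Topology

variable {Γ S : Type} [Group Γ] [MulAction Γ S]

/-! ### M5 : the subalgebra bA is maximal abelian -/

lemma taskModM5_conj (h : S →₀ ZMod 2) (g : BGrp Γ S) :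
    (⟨h, 1⟩ : BGrp Γ S)⁻¹ * g * ⟨h, 1⟩ = ⟨h + g.fst + bAct g.snd h, g.snd⟩ := by
  apply BGrp.ext
  · simp only [BGrp.mul_fst, BGrp.mul_snd, BGrp.inv_fst, BGrp.inv_snd, inv_one, bAct_one, one_mul]
  · simp only [BGrp.mul_snd, BGrp.inv_snd, inv_one, one_mul, mul_one]

theorem bA_omega_support (hfree : ∀ γ : Γ, γ ≠ 1 → {s : S | γ • s ≠ s}.Infinite)
    {x : GHilb (BGrp Γ S) →L[ℂ] GHilb (BGrp Γ S)} (hx : x ∈ bA Γ S) (g : BGrp Γ S)
    (hg : g.snd ≠ 1) : (x gOmega : BGrp Γ S → ℂ) g = 0 := by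
  classical
  obtain ⟨hxM, hxZ⟩ := (mem_bA_iff x).mp hx
  obtain ⟨φ, hφ⟩ : ∃ φ : S → BGrp Γ S, φ = fun s =>
      ⟨Finsupp.single s 1 + g.fst + bAct g.snd (Finsupp.single s 1), g.snd⟩ := ⟨_, rfl⟩
  have hval : ∀ s, (x gOmega : BGrp Γ S → ℂ) (φ s) = (x gOmega : BGrp Γ S → ℂ) g := by
    intro s
    have h1 := gM_conj_coeff hxM (⟨Finsupp.single s 1, 1⟩ : BGrp Γ S)
      (hxZ (Finsupp.single s 1)) g
    rw [taskModM5_conj] at h1
    rw [hφ]
    exact h1
  have hinf : (φ '' {s : S | g.snd • s ≠ s}).Infinite := by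
    intro hfin
    apply hfree g.snd hg
    apply Set.Finite.of_finite_fibers φ hfin
    intro y hy
    obtain ⟨s, -, rfl⟩ := hy
    apply Set.Finite.subset (Set.toFinite {s, g.snd • s})
    rintro s' ⟨hs', hs'eq⟩
    by_contra hnot
    simp only [Set.mem_insert_iff, Set.mem_singleton_iff, not_or] at hnot
    obtain ⟨hn1, hn2⟩ := hnot
    have h2 : φ s' = φ s := hs'eq
    rw [hφ] at h2
    have h3 := congrArg (fun z : BGrp Γ S => z.fst s') h2
    simp only [Finsupp.add_apply, bAct_apply, Finsupp.single_apply] at h3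
    have e1 : ¬ (s' = g.snd⁻¹ • s') := by
      intro h
      apply hs'
      have h4 := congrArg (fun t => g.snd • t) h
      simp only [smul_inv_smul] at h4
      exact h4
    have e2 : ¬ (s = s') := fun h => hn1 h.symm
    have e3 : ¬ (s = g.snd⁻¹ • s') := by
      intro h
      apply hn2
      rw [h, smul_inv_smul]
    rw [if_pos trivial, if_neg e1, if_neg e2, if_neg e3] at h3
    have h5 : (1 : ZMod 2) = 0 := by linear_combination h3
    exact one_ne_zero h5
  by_contra hne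
  have h2 : (0 : ℝ) < (2 : ENNReal).toReal := by norm_num
  have hsum := (memℓp_gen_iff h2).1 (lp.memℓp (x gOmega))
  have htend := hsum.tendsto_cofinite_zero
  have hc : (0 : ℝ) < ‖(x gOmega : BGrp Γ S → ℂ) g‖ ^ (2 : ENNReal).toReal :=
    Real.rpow_pos_of_pos (norm_pos_iff.mpr hne) _
  have hev := htend.eventually (gt_mem_nhds hc)
  have hfin := Filter.eventually_cofinite.mp hev
  apply hinf
  apply hfin.subset
  rintro y ⟨s, -, rfl⟩
  show ¬ (‖(x gOmega : BGrp Γ S → ℂ) (φ s)‖ ^ (2 : ENNReal).toReal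
    < ‖(x gOmega : BGrp Γ S → ℂ) g‖ ^ (2 : ENNReal).toReal)
  rw [hval s]
  exact lt_irrefl _

lemma bA_comm_apply (hfree : ∀ γ : Γ, γ ≠ 1 → {s : S | γ • s ≠ s}.Infinite)
    {a b : GHilb (BGrp Γ S) →L[ℂ] GHilb (BGrp Γ S)} (ha : a ∈ bA Γ S) (hb : b ∈ bA Γ S) :
    a (b gOmega) = b (a gOmega) := by
  have haM := ((mem_bA_iff a).mp ha).1
  have hbM := ((mem_bA_iff b).mp hb).1
  apply lp.ext
  funext c
  have h1 := gM_hasSum_apply haM (b gOmega) c
  have h2 := ((Equiv.inv (BGrp Γ S)).trans (Equiv.mulRight c)).hasSum_iff.mpr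
    (gM_hasSum_apply hbM (a gOmega) c)
  have e : (fun g : BGrp Γ S => (b gOmega : BGrp Γ S → ℂ) (c * g⁻¹)
        * (a gOmega : BGrp Γ S → ℂ) g) ∘ ((Equiv.inv (BGrp Γ S)).trans (Equiv.mulRight c))
      = fun g : BGrp Γ S => (a gOmega : BGrp Γ S → ℂ) (c * g⁻¹)
        * (b gOmega : BGrp Γ S → ℂ) g := by
    funext g
    simp only [Function.comp_apply, Equiv.trans_apply, Equiv.inv_apply, Equiv.coe_mulRight]
    have hcc : c * (g⁻¹ * c)⁻¹ = g := by group
    rw [hcc]
    by_cases hg : g.snd = 1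
    · by_cases hcs : c.snd = 1
      · have hcomm : c * g⁻¹ = g⁻¹ * c := by
          apply BGrp.ext
          · simp only [BGrp.mul_fst, BGrp.inv_fst, BGrp.inv_snd, hg, hcs, inv_one, bAct_one]
            exact add_comm _ _
          · simp only [BGrp.mul_snd, BGrp.inv_snd, hg, hcs, inv_one, mul_one]
        rw [hcomm]
        ring
      · have e1 : (c * g⁻¹).snd ≠ 1 := by
          simp only [BGrp.mul_snd, BGrp.inv_snd, hg, inv_one, mul_one]
          exact hcs
        have e2 : (g⁻¹ * c).snd ≠ 1 := by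
          simp only [BGrp.mul_snd, BGrp.inv_snd, hg, inv_one, one_mul]
          exact hcs
        rw [bA_omega_support hfree ha _ e1, bA_omega_support hfree ha _ e2]
        ring
    · rw [bA_omega_support hfree hb g hg]
      ring
  rw [e] at h2
  exact h1.unique h2

theorem bA_masa (hfree : ∀ γ : Γ, γ ≠ 1 → {s : S | γ • s ≠ s}.Infinite) :
    IsMASA (bA Γ S) (gM (BGrp Γ S)) := by
  refine ⟨bA_le_gM, ?_, ?_⟩
  · intro a ha b hb
    have haM := ((mem_bA_iff a).mp ha).1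
    have hbM := ((mem_bA_iff b).mp hb).1
    have hmem : a * b - b * a ∈ gM (BGrp Γ S) := sub_mem (mul_mem haM hbM) (mul_mem hbM haM)
    have h0 : (a * b - b * a) gOmega = 0 := by
      show a (b gOmega) - b (a gOmega) = 0
      rw [bA_comm_apply hfree ha hb, sub_self]
    exact sub_eq_zero.mp (gM_separating _ hmem h0)
  · intro x hx hcomm
    rw [mem_bA_iff]
    exact ⟨hx, fun h => hcomm _ (bZ_mem_bA h)⟩

end Vale.Agent.Lib.P078
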