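import Vale.Agent.Lib.P078.ProModelDefs
import Vale.Agent.Lib.P078.Approx
import Vale.Agent.Lib.P078.HF.A3b
import Vale.Agent.Lib.P078.ProMod.M6a

namespace Vale.Agent.Lib.P078

open scoped InnerProductSpace Matrix.Norms.L2Operator
open ContinuousLinearMap Filter Topology

variable {Γ S : Type} [Group Γ] [MulAction Γ S]

/-! ### M6b : the characters bSgn -/

lemma taskModM6b_pair_add_left (h h' x : S →₀ ZMod 2) :
    bPair (h + h') x = bPair h x + bPair h' x := by
  unfold bPair
  exact Finsupp.sum_add_index' (fun s => zero_mul _) (fun s a b => add_mul _ _ _)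

lemma taskModM6b_pair_add_right (h x x' : S →₀ ZMod 2) :
    bPair h (x + x') = bPair h x + bPair h x' := by
  unfold bPair
  rw [← Finsupp.sum_add]
  apply Finsupp.sum_congr
  intro s _
  rw [Finsupp.add_apply, mul_add]

lemma taskModM6b_pair_zero_left (x : S →₀ ZMod 2) : bPair 0 x = 0 := by
  unfold bPair
  exact Finsupp.sum_zero_index

lemma taskModM6b_pair_zero_right (h : S →₀ ZMod 2) : bPair h 0 = 0 := by
  unfold bPair Finsupp.sum
  apply Finset.sum_eq_zero
  intro s _
  show h s * (0 : S →₀ ZMod 2) s = 0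
  rw [Finsupp.zero_apply, mul_zero]

lemma taskModM6b_pair_comm (h x : S →₀ ZMod 2) : bPair h x = bPair x h := by
  classical
  unfold bPair
  rw [Finsupp.sum_of_support_subset h (Finset.subset_union_left (s₂ := x.support))
      (fun s a => a * x s) (fun s _ => zero_mul _),
    Finsupp.sum_of_support_subset x (Finset.subset_union_right (s₁ := h.support))
      (fun s a => a * h s) (fun s _ => zero_mul _)]
  apply Finset.sum_congr rfl
  intro s _
  exact mul_comm _ _

lemma taskModM6b_pair_act (γ : Γ) (h x : S →₀ ZMod 2) :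
    bPair (bAct γ h) (bAct γ x) = bPair h x := by
  classical
  unfold bPair
  have hsub : (bAct γ h).support ⊆ h.support.image (fun s => γ • s) := by
    intro s hs
    rw [Finsupp.mem_support_iff, bAct_apply] at hs
    rw [Finset.mem_image]
    exact ⟨γ⁻¹ • s, Finsupp.mem_support_iff.mpr hs, smul_inv_smul γ s⟩
  rw [Finsupp.sum_of_support_subset (bAct γ h) hsub (fun s a => a * bAct γ x s)
      (fun s _ => zero_mul _),
    Finset.sum_image (fun a _ b _ hab => MulAction.injective γ hab)]
  unfold Finsupp.sum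
  apply Finset.sum_congr rfl
  intro s _
  rw [bAct_apply, bAct_apply, inv_smul_smul]

lemma taskModM6b_sign_add (a b : ZMod 2) :
    (if a + b = 0 then (1 : ℂ) else -1)
      = (if a = 0 then (1 : ℂ) else -1) * (if b = 0 then (1 : ℂ) else -1) := by
  have h2 : ∀ c : ZMod 2, c = 0 ∨ c = 1 := by decide
  have h11 : (1 : ZMod 2) + 1 = 0 := by decide
  have h10 : (1 : ZMod 2) ≠ 0 := by decide
  rcases h2 a with rfl | rfl <;> rcases h2 b with rfl | rfl <;> simp [h11, h10]

lemma bSgn_add_left (h h' x : S →₀ ZMod 2) : bSgn (h + h') x = bSgn h x * bSgn h' x := by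
  unfold bSgn
  rw [taskModM6b_pair_add_left]
  exact taskModM6b_sign_add _ _

lemma bSgn_add_right (h x x' : S →₀ ZMod 2) : bSgn h (x + x') = bSgn h x * bSgn h x' := by
  unfold bSgn
  rw [taskModM6b_pair_add_right]
  exact taskModM6b_sign_add _ _

lemma bSgn_zero_left (x : S →₀ ZMod 2) : bSgn 0 x = 1 := by
  unfold bSgn
  rw [taskModM6b_pair_zero_left, if_pos rfl]

lemma bSgn_zero_right (h : S →₀ ZMod 2) : bSgn h 0 = 1 := by
  unfold bSgn
  rw [taskModM6b_pair_zero_right, if_pos rfl]

lemma bSgn_mul_self (h x : S →₀ ZMod 2) : bSgn h x * bSgn h x = 1 := by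
  unfold bSgn
  split_ifs <;> norm_num

lemma bSgn_conj (h x : S →₀ ZMod 2) : (starRingEnd ℂ) (bSgn h x) = bSgn h x := by
  unfold bSgn
  split_ifs <;> simp

lemma bSgn_comm (h x : S →₀ ZMod 2) : bSgn h x = bSgn x h := by
  unfold bSgn
  rw [taskModM6b_pair_comm]

lemma bSgn_act (γ : Γ) (h x : S →₀ ZMod 2) : bSgn (bAct γ h) (bAct γ x) = bSgn h x := by
  unfold bSgn
  rw [taskModM6b_pair_act]

lemma bSgn_sum_zero (J : Finset S) :
    ∑ h ∈ bSupp J, bSgn h (0 : S →₀ ZMod 2) = ((bSupp J).card : ℂ) := by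
  rw [Finset.sum_congr rfl (fun h _ => bSgn_zero_right h), Finset.sum_const, nsmul_eq_mul,
    mul_one]

lemma bSgn_sum_ne (J : Finset S) {x : S →₀ ZMod 2} (hx : x ∈ bSupp J) (hx0 : x ≠ 0) :
    ∑ h ∈ bSupp J, bSgn h x = 0 := by
  classical
  obtain ⟨s, hs⟩ := DFunLike.ne_iff.mp hx0
  rw [Finsupp.zero_apply] at hs
  have h2 : ∀ c : ZMod 2, c = 0 ∨ c = 1 := by decide
  have hxs : x s = 1 := (h2 (x s)).resolve_left hs
  have hsJ : s ∈ J := by
    by_contra hsJ
    exact hs ((mem_bSupp J x).mp hx s hsJ)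
  have he : Finsupp.single s (1 : ZMod 2) ∈ bSupp J := by
    rw [mem_bSupp]
    intro s' hs'
    have hne : s ≠ s' := fun hss => hs' (hss ▸ hsJ)
    rw [Finsupp.single_apply, if_neg hne]
  have hsgn : bSgn (Finsupp.single s (1 : ZMod 2)) x = -1 := by
    have h10 : (1 : ZMod 2) ≠ 0 := by decide
    unfold bSgn bPair
    rw [Finsupp.sum_single_index (zero_mul _), hxs, one_mul, if_neg h10]
  have hre : ∑ h ∈ bSupp J, bSgn (h + Finsupp.single s (1 : ZMod 2)) x
      = ∑ h ∈ bSupp J, bSgn h x := by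
    refine Finset.sum_nbij' (fun h => h + Finsupp.single s (1 : ZMod 2))
      (fun h => h + Finsupp.single s (1 : ZMod 2)) ?_ ?_ ?_ ?_ ?_
    · intro h hh
      exact bSupp_add hh he
    · intro h hh
      exact bSupp_add hh he
    · intro h _
      show h + Finsupp.single s (1 : ZMod 2) + Finsupp.single s (1 : ZMod 2) = h
      rw [add_assoc, bFun_add_self, add_zero]
    · intro h _
      show h + Finsupp.single s (1 : ZMod 2) + Finsupp.single s (1 : ZMod 2) = h
      rw [add_assoc, bFun_add_self, add_zero]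
    · intro h _
      rfl
  have hneg : ∑ h ∈ bSupp J, bSgn (h + Finsupp.single s (1 : ZMod 2)) x
      = -∑ h ∈ bSupp J, bSgn h x := by
    rw [← Finset.sum_neg_distrib]
    apply Finset.sum_congr rfl
    intro h _
    rw [bSgn_add_left, hsgn, mul_neg, mul_one]
  rw [hre] at hneg
  linear_combination (1 / 2 : ℂ) * hneg

end Vale.Agent.Lib.P078
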