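import Vale.Agent.Lib.P078.ProModelDefs
import Vale.Agent.Lib.P078.Approx
import Vale.Agent.Lib.P078.HF.A3b
import Vale.Agent.Lib.P078.ProMod.M2
import Vale.Agent.Lib.P078.ProMod.M4
import Vale.Agent.Lib.P078.ProMod.M6b

namespace Vale.Agent.Lib.P078

open scoped InnerProductSpace Matrix.Norms.L2Operator
open ContinuousLinearMap Filter Topology

variable {Γ S : Type} [Group Γ] [MulAction Γ S]

/-! ### M7 : the projections bE -/

lemma taskModM7_card_ne (J : Finset S) : ((bSupp J).card : ℂ) ≠ 0 :=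
  Nat.cast_ne_zero.mpr (Finset.card_ne_zero.mpr ⟨0, bSupp_zero J⟩)

lemma taskModM7_add_ne {x y : S →₀ ZMod 2} (hxy : x ≠ y) : x + y ≠ 0 := by
  intro h0
  apply hxy
  calc x = x + (y + y) := by rw [bFun_add_self, add_zero]
    _ = (x + y) + y := by rw [add_assoc]
    _ = y := by rw [h0, zero_add]

lemma taskModM7_mul (J : Finset S) (x y : S →₀ ZMod 2) :
    bE (Γ := Γ) J x * bE J y =
      ((((bSupp J).card : ℂ))⁻¹ * (((bSupp J).card : ℂ))⁻¹ * ∑ h ∈ bSupp J, bSgn h (x + y)) •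
        ∑ k ∈ bSupp J, bSgn k y • (bZ k : GHilb (BGrp Γ S) →L[ℂ] _) := by
  unfold bE
  rw [smul_mul_smul_comm, Finset.sum_mul]
  have h1 : ∀ h ∈ bSupp J, (bSgn h x • (bZ h : GHilb (BGrp Γ S) →L[ℂ] _)) *
        ∑ h' ∈ bSupp J, bSgn h' y • (bZ h' : GHilb (BGrp Γ S) →L[ℂ] _)
      = ∑ k ∈ bSupp J, (bSgn h (x + y) * bSgn k y) • (bZ k : GHilb (BGrp Γ S) →L[ℂ] _) := by
    intro h hh
    rw [Finset.mul_sum]
    refine Finset.sum_bij' (fun h' _ => h + h') (fun k _ => h + k) ?_ ?_ ?_ ?_ ?_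
    · intro h' hh'
      exact bSupp_add hh hh'
    · intro k hk
      exact bSupp_add hh hk
    · intro h' _
      rw [← add_assoc, bFun_add_self, zero_add]
    · intro k _
      rw [← add_assoc, bFun_add_self, zero_add]
    · intro h' _
      rw [smul_mul_smul_comm, bZ_mul]
      congr 1
      rw [bSgn_add_right, bSgn_add_left]
      have e := bSgn_mul_self h y
      linear_combination (-(bSgn h x * bSgn h' y)) * e
  rw [Finset.sum_congr rfl h1, mul_smul (((bSupp J).card : ℂ)⁻¹ * ((bSupp J).card : ℂ)⁻¹)]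
  congr 1
  rw [Finset.sum_smul]
  refine Finset.sum_congr rfl (fun h _ => ?_)
  rw [Finset.smul_sum]
  refine Finset.sum_congr rfl (fun k _ => ?_)
  rw [mul_smul]

lemma bE_mul (J : Finset S) {x y : S →₀ ZMod 2} (hx : x ∈ bSupp J) (hy : y ∈ bSupp J)
    (hxy : x ≠ y) : bE (Γ := Γ) J x * bE J y = 0 := by
  rw [taskModM7_mul, bSgn_sum_ne J (bSupp_add hx hy) (taskModM7_add_ne hxy), mul_zero,
    zero_smul]

lemma bE_proj (J : Finset S) {x : S →₀ ZMod 2} (hx : x ∈ bSupp J) :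
    IsStarProjection (bE (Γ := Γ) J x) := by
  have hN := taskModM7_card_ne J
  have _hx := hx
  refine ⟨?_, ?_⟩
  · unfold IsIdempotentElem
    rw [taskModM7_mul, bFun_add_self, bSgn_sum_zero, mul_assoc, inv_mul_cancel₀ hN, mul_one]
    rfl
  · rw [isSelfAdjoint_iff]
    unfold bE
    rw [star_smul, star_sum]
    congr 1
    · simp
    · refine Finset.sum_congr rfl (fun h _ => ?_)
      rw [star_smul, bZ_star]
      congr 1
      exact bSgn_conj h x

lemma bE_sum (J : Finset S) : ∑ x ∈ bSupp J, bE (Γ := Γ) J x = 1 := by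
  classical
  have hN := taskModM7_card_ne J
  unfold bE
  rw [← Finset.smul_sum, Finset.sum_comm]
  have h1 : ∀ h ∈ bSupp J, ∑ x ∈ bSupp J, bSgn h x • (bZ h : GHilb (BGrp Γ S) →L[ℂ] _)
      = if h = 0 then ((bSupp J).card : ℂ) • (1 : GHilb (BGrp Γ S) →L[ℂ] _) else 0 := by
    intro h hh
    rw [← Finset.sum_smul]
    have h2 : ∑ x ∈ bSupp J, bSgn h x = ∑ x ∈ bSupp J, bSgn x h :=
      Finset.sum_congr rfl (fun x _ => bSgn_comm h x)
    rw [h2]
    by_cases h0 : h = 0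
    · rw [if_pos h0, h0, bSgn_sum_zero, bZ_zero]
    · rw [if_neg h0, bSgn_sum_ne J hh h0, zero_smul]
  rw [Finset.sum_congr rfl h1, Finset.sum_ite_eq', if_pos (bSupp_zero J), smul_smul,
    inv_mul_cancel₀ hN, one_smul]

lemma bE_mem (J : Finset S) (x : S →₀ ZMod 2) : bE (Γ := Γ) J x ∈ bA Γ S := by
  unfold bE
  refine (bA Γ S).toStarSubalgebra.smul_mem ?_ _
  refine sum_mem (fun h _ => ?_)
  exact (bA Γ S).toStarSubalgebra.smul_mem (bZ_mem_bA h) _

lemma taskModM7_trace_bZ (h : S →₀ ZMod 2) [Decidable (h = 0)] :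
    ⟪(gOmega : GHilb (BGrp Γ S)), bZ h gOmega⟫_ℂ = if h = 0 then 1 else 0 := by
  unfold bZ gOmega
  rw [gLam_delta, inner_gDelta, mul_one]
  by_cases h0 : h = 0
  · rw [if_pos h0, h0]
    exact gDelta_self (1 : BGrp Γ S)
  · rw [if_neg h0]
    apply gDelta_ne
    intro h1
    exact h0 (congrArg BGrp.fst h1).symm

lemma bE_trace (J : Finset S) (x : S →₀ ZMod 2) :
    ⟪(gOmega : GHilb (BGrp Γ S)), bE J x gOmega⟫_ℂ = (((bSupp J).card : ℂ))⁻¹ := by
  classical
  unfold bE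
  rw [_root_.smul_apply, _root_.sum_apply, inner_smul_right,
    inner_sum]
  have h1 : ∀ h ∈ bSupp J,
      ⟪(gOmega : GHilb (BGrp Γ S)), (bSgn h x • (bZ h : GHilb (BGrp Γ S) →L[ℂ] _)) gOmega⟫_ℂ
        = if h = 0 then 1 else 0 := by
    intro h _
    rw [_root_.smul_apply, inner_smul_right, taskModM7_trace_bZ]
    by_cases h0 : h = 0
    · rw [if_pos h0, h0, bSgn_zero_left, mul_one]
    · rw [if_neg h0, mul_zero]
  rw [Finset.sum_congr rfl h1, Finset.sum_ite_eq', if_pos (bSupp_zero J), mul_one]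

lemma bZ_eq_sum (J : Finset S) {h : S →₀ ZMod 2} (hh : h ∈ bSupp J) :
    bZ (Γ := Γ) h = ∑ x ∈ bSupp J, bSgn h x • bE J x := by
  classical
  have hN := taskModM7_card_ne J
  have h1 : ∀ x ∈ bSupp J, bSgn h x • bE (Γ := Γ) J x = (((bSupp J).card : ℂ))⁻¹ •
      ∑ h' ∈ bSupp J, bSgn x (h + h') • (bZ h' : GHilb (BGrp Γ S) →L[ℂ] _) := by
    intro x _
    unfold bE
    rw [smul_comm]
    congr 1
    rw [Finset.smul_sum]
    refine Finset.sum_congr rfl (fun h' _ => ?_)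
    rw [smul_smul, bSgn_comm x (h + h'), bSgn_add_left]
  rw [Finset.sum_congr rfl h1, ← Finset.smul_sum, Finset.sum_comm]
  have h2 : ∀ h' ∈ bSupp J,
      ∑ x ∈ bSupp J, bSgn x (h + h') • (bZ h' : GHilb (BGrp Γ S) →L[ℂ] _)
        = if h' = h then ((bSupp J).card : ℂ) • (bZ h : GHilb (BGrp Γ S) →L[ℂ] _) else 0 := by
    intro h' hh'
    rw [← Finset.sum_smul]
    by_cases e : h' = h
    · rw [if_pos e, e, bFun_add_self, bSgn_sum_zero]
    · rw [if_neg e, bSgn_sum_ne J (bSupp_add hh hh') (taskModM7_add_ne (Ne.symm e)), zero_smul]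
  rw [Finset.sum_congr rfl h2, Finset.sum_ite_eq', if_pos hh, smul_smul, inv_mul_cancel₀ hN,
    one_smul]

lemma bU_bE (J : BLev Γ S) (γ : Γ) (x : S →₀ ZMod 2) :
    bU γ * bE J.1 x * star (bU γ) = bE J.1 (bAct γ x) := by
  unfold bE
  rw [mul_smul_comm, smul_mul_assoc, Finset.mul_sum, Finset.sum_mul]
  congr 1
  refine Finset.sum_bij' (fun h _ => bAct γ h) (fun h' _ => bAct γ⁻¹ h') ?_ ?_ ?_ ?_ ?_
  · intro h hh
    exact bAct_mem_bSupp J γ hh
  · intro h' hh'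
    exact bAct_mem_bSupp J γ⁻¹ hh'
  · intro h _
    rw [← bAct_mul, inv_mul_cancel, bAct_one]
  · intro h' _
    rw [← bAct_mul, mul_inv_cancel, bAct_one]
  · intro h _
    rw [mul_smul_comm, smul_mul_assoc, bU_bZ, bSgn_act]

end Vale.Agent.Lib.P078
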