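import Vale.Agent.Lib.P078.ProModelDefs
import Vale.Agent.Lib.P078.Approx
import Vale.Agent.Lib.P078.HF.A3b
import Vale.Agent.Lib.P078.ProMod.M7

namespace Vale.Agent.Lib.P078

open scoped InnerProductSpace Matrix.Norms.L2Operator
open ContinuousLinearMap Filter Topology

variable {Γ S : Type} [Group Γ] [MulAction Γ S]

/-! ### M8 : the levels -/

lemma taskModM8_sum {β : Type*} [AddCommMonoid β] (J : Finset S) (F : (S →₀ ZMod 2) → β) :
    ∑ k : Fin (bSupp J).card, F ((bSupp J).equivFin.symm k).1 = ∑ x ∈ bSupp J, F x := by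
  rw [← Finset.sum_coe_sort (bSupp J) F]
  exact Equiv.sum_comp (bSupp J).equivFin.symm (fun x : bSupp J => F x.1)

lemma taskModM8_mem (J : Finset S) (k : Fin (bSupp J).card) :
    ((bSupp J).equivFin.symm k).1 ∈ bSupp J := ((bSupp J).equivFin.symm k).2

lemma taskModM8_inj (J : Finset S) {k k' : Fin (bSupp J).card}
    (h : ((bSupp J).equivFin.symm k).1 = ((bSupp J).equivFin.symm k').1) : k = k' :=
  (bSupp J).equivFin.symm.injective (Subtype.ext h)

lemma taskModM8_levS (J : BLev Γ S) (γ : Γ) (k : Fin (bSupp J.1).card) :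
    ((bSupp J.1).equivFin.symm (bLevS J.1 γ k)).1
      = bAct γ ((bSupp J.1).equivFin.symm k).1 := by
  have h : bAct γ ((bSupp J.1).equivFin.symm k).1 ∈ bSupp J.1 :=
    bAct_mem_bSupp J γ (taskModM8_mem J.1 k)
  unfold bLevS
  rw [dif_pos h, Equiv.symm_apply_apply]

lemma b_isProRep : IsProRep (gM (BGrp Γ S)) (bU : Γ → _) := by
  exact ⟨bU_one, bU_mul, fun γ => ⟨bU_mem_gM γ, bU_star γ⟩⟩

lemma b_isProLevel (J : BLev Γ S) :
    IsProLevel (bA Γ S) gOmega (bU : Γ → _) (bLevE J.1) (bLevS J.1) := by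
  refine ⟨⟨fun k => ⟨bE_mem J.1 _, bE_proj J.1 (taskModM8_mem J.1 k)⟩, fun i j hij => ?_, ?_⟩,
    fun k => ?_, fun γ k => ?_⟩
  · exact bE_mul J.1 (taskModM8_mem J.1 i) (taskModM8_mem J.1 j)
      (fun h => hij (taskModM8_inj J.1 h))
  · show ∑ k : Fin (bSupp J.1).card, bE J.1 ((bSupp J.1).equivFin.symm k).1 = 1
    rw [taskModM8_sum J.1 (fun x => bE (Γ := Γ) J.1 x), bE_sum]
  · exact bE_trace J.1 _
  · show bU γ * bE J.1 ((bSupp J.1).equivFin.symm k).1 * star (bU γ)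
      = bE J.1 ((bSupp J.1).equivFin.symm (bLevS J.1 γ k)).1
    rw [taskModM8_levS, bU_bE]

lemma b_refine {J J' : Finset S} (hJ : J ⊆ J') (k : Fin (bSupp J).card) :
    bLevE (Γ := Γ) J k ∈ Submodule.span ℂ (Set.range (bLevE (Γ := Γ) J')) := by
  have hE : ∀ x ∈ bSupp J',
      bE (Γ := Γ) J' x ∈ Submodule.span ℂ (Set.range (bLevE (Γ := Γ) J')) := by
    intro x hx
    refine Submodule.subset_span ⟨(bSupp J').equivFin ⟨x, hx⟩, ?_⟩
    show bE J' ((bSupp J').equivFin.symm ((bSupp J').equivFin ⟨x, hx⟩)).1 = bE J' x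
    rw [Equiv.symm_apply_apply]
  have hZ : ∀ h ∈ bSupp J,
      bZ (Γ := Γ) h ∈ Submodule.span ℂ (Set.range (bLevE (Γ := Γ) J')) := by
    intro h hh
    rw [bZ_eq_sum J' (bSupp_mono hJ hh)]
    exact Submodule.sum_mem _ (fun x hx => Submodule.smul_mem _ _ (hE x hx))
  show bE J ((bSupp J).equivFin.symm k).1 ∈ Submodule.span ℂ (Set.range (bLevE (Γ := Γ) J'))
  unfold bE
  exact Submodule.smul_mem _ _
    (Submodule.sum_mem _ (fun h hh => Submodule.smul_mem _ _ (hZ h hh)))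

lemma b_zdiag (J : Finset S) {h : S →₀ ZMod 2} (hh : h ∈ bSupp J) :
    ∃ f : Fin (bSupp J).card → ℂ, bZ (Γ := Γ) h = proDiag (bLevE J) f := by
  refine ⟨fun k => bSgn h ((bSupp J).equivFin.symm k).1, ?_⟩
  unfold proDiag
  show bZ h = ∑ k : Fin (bSupp J).card,
    bSgn h ((bSupp J).equivFin.symm k).1 • bE J ((bSupp J).equivFin.symm k).1
  rw [taskModM8_sum J (fun x => bSgn h x • bE (Γ := Γ) J x)]
  exact bZ_eq_sum J hh

lemma b_fix_le (J : BLev Γ S) (γ : Γ) (T : Finset (S →₀ ZMod 2))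
    (hT : ∀ x ∈ bSupp J.1, bAct γ x = x → x ∈ T) : proFix (bLevS J.1) γ ≤ T.card := by
  unfold proFix
  refine Finset.card_le_card_of_injOn (fun k => ((bSupp J.1).equivFin.symm k).1) ?_ ?_
  · intro k hk
    have hk2 : k ∈ Finset.univ.filter (fun k => bLevS J.1 γ k = k) := hk
    have hk' : bLevS J.1 γ k = k := (Finset.mem_filter.mp hk2).2
    have h1 := taskModM8_levS J γ k
    rw [hk'] at h1
    exact hT _ (taskModM8_mem J.1 k) h1.symm
  · intro k _ k' _ h
    exact taskModM8_inj J.1 h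

end Vale.Agent.Lib.P078
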