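import Vale.Agent.Lib.P078.ProModelDefs
import Vale.Agent.Lib.P078.Approx
import Vale.Agent.Lib.P078.HF.A3b
import Vale.Agent.Lib.P078.ProMod.M8

namespace Vale.Agent.Lib.P078

open scoped InnerProductSpace Matrix.Norms.L2Operator
open ContinuousLinearMap Filter Topology

variable {Γ S : Type} [Group Γ] [MulAction Γ S]

/-! ### M9 : invariant hulls and the count of fixed points -/

lemma b_exists_hull (hfin : ∀ s : S, (MulAction.orbit Γ s).Finite) (T : Finset S) :
    ∃ J : BLev Γ S, T ⊆ J.1 := by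
  classical
  have hinv : ∀ (γ : Γ), ∀ s ∈ T.biUnion (fun s => (hfin s).toFinset),
      γ • s ∈ T.biUnion (fun s => (hfin s).toFinset) := by
    intro γ s hs
    rw [Finset.mem_biUnion] at hs ⊢
    obtain ⟨a, ha, hsa⟩ := hs
    refine ⟨a, ha, ?_⟩
    rw [Set.Finite.mem_toFinset] at hsa ⊢
    obtain ⟨β, hβ⟩ := hsa
    have hβ' : β • a = s := hβ
    refine ⟨γ * β, ?_⟩
    show (γ * β) • a = γ • s
    rw [mul_smul, hβ']
  refine ⟨(⟨T.biUnion (fun s => (hfin s).toFinset), hinv⟩ :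
    {J : Finset S // ∀ (γ : Γ), ∀ s ∈ J, γ • s ∈ J}), ?_⟩
  intro s hs
  exact Finset.mem_biUnion.mpr
    ⟨s, hs, (Set.Finite.mem_toFinset _).mpr (MulAction.mem_orbit_self s)⟩

lemma b_exists_moved (hfree : ∀ γ : Γ, γ ≠ 1 → {s : S | γ • s ≠ s}.Infinite) (γ : Γ)
    (hγ : γ ≠ 1) (t : ℕ) : ∃ T : Finset S, T.card = t ∧ ∀ s ∈ T, γ • s ∉ T := by
  classical
  induction t with
  | zero => exact ⟨∅, Finset.card_empty, fun s hs => absurd hs (Finset.notMem_empty s)⟩
  | succ t ih =>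
    obtain ⟨T, hcard, hT⟩ := ih
    obtain ⟨s, hs, hsB⟩ := (hfree γ hγ).exists_notMem_finset
      (T ∪ T.image (fun a => γ • a) ∪ T.image (fun a => γ⁻¹ • a))
    have hs' : γ • s ≠ s := hs
    rw [Finset.mem_union, Finset.mem_union] at hsB
    have hsT : s ∉ T := fun h => hsB (Or.inl (Or.inl h))
    have hs1 : s ∉ T.image (fun a => γ • a) := fun h => hsB (Or.inl (Or.inr h))
    have hs2 : s ∉ T.image (fun a => γ⁻¹ • a) := fun h => hsB (Or.inr h)
    refine ⟨insert s T, ?_, ?_⟩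
    · rw [Finset.card_insert_of_notMem hsT, hcard]
    · intro a ha
      rw [Finset.mem_insert] at ha ⊢
      rcases ha with ha | ha
      · rw [ha]
        rintro (h | h)
        · exact hs' h
        · exact hs2 (Finset.mem_image.mpr ⟨γ • s, h, inv_smul_smul γ s⟩)
      · rintro (h | h)
        · exact hs1 (Finset.mem_image.mpr ⟨a, ha, h⟩)
        · exact hT a ha h

lemma b_fixed_count (J : BLev Γ S) (γ : Γ) (T : Finset S) (hT : T ⊆ J.1)
    (hTγ : ∀ s ∈ T, γ • s ∉ T) (F : Finset (S →₀ ZMod 2))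
    (hF : ∀ x ∈ F, x ∈ bSupp J.1 ∧ bAct γ x = x) :
    F.card * 2 ^ T.card ≤ (bSupp J.1).card := by
  classical
  obtain ⟨T', hT'⟩ : ∃ T' : Finset S, T' = T.image (fun s => γ • s) := ⟨_, rfl⟩
  have hT'card : T'.card = T.card := by
    rw [hT']
    exact Finset.card_image_of_injective _ (MulAction.injective γ)
  have hT'J : T' ⊆ J.1 := by
    intro s hs
    rw [hT', Finset.mem_image] at hs
    obtain ⟨a, ha, has⟩ := hs
    rw [← has]
    exact J.2 γ a (hT ha)
  have hsub : bSupp T' ⊆ bSupp J.1 := bSupp_mono hT'J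
  have hcard : (F ×ˢ bSupp T').card = F.card * 2 ^ T.card := by
    rw [Finset.card_product, card_bSupp, hT'card]
  rw [← hcard]
  apply Finset.card_le_card_of_injOn (fun p => p.1 + p.2)
  · intro p hp
    have hp' : p ∈ F ×ˢ bSupp T' := hp
    rw [Finset.mem_product] at hp'
    exact bSupp_add (hF p.1 hp'.1).1 (hsub hp'.2)
  · intro p hp q hq hpq
    have hp' : p ∈ F ×ˢ bSupp T' := hp
    have hq' : q ∈ F ×ˢ bSupp T' := hq
    rw [Finset.mem_product] at hp' hq'
    have hpq' : p.1 + p.2 = q.1 + q.2 := hpq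
    have hw : p.1 + q.1 = p.2 + q.2 := by
      have e1 : p.1 + q.1 = (p.1 + p.2) + (q.1 + p.2) := by
        have h : (p.1 + p.2) + (q.1 + p.2) = p.1 + q.1 + (p.2 + p.2) := by abel
        rw [h, bFun_add_self, add_zero]
      have e2 : (q.1 + q.2) + (q.1 + p.2) = p.2 + q.2 := by
        have h : (q.1 + q.2) + (q.1 + p.2) = p.2 + q.2 + (q.1 + q.1) := by abel
        rw [h, bFun_add_self, add_zero]
      rw [e1, hpq', e2]
    have hwfix : bAct γ (p.1 + q.1) = p.1 + q.1 := by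
      rw [bAct_add, (hF p.1 hp'.1).2, (hF q.1 hq'.1).2]
    have hwT' : p.1 + q.1 ∈ bSupp T' := by
      rw [hw]
      exact bSupp_add hp'.2 hq'.2
    have hw0 : p.1 + q.1 = 0 := by
      apply Finsupp.ext
      intro s
      rw [Finsupp.zero_apply]
      by_cases hs : s ∈ T'
      · rw [hT', Finset.mem_image] at hs
        obtain ⟨a, ha, has⟩ := hs
        have haT' : a ∉ T' := by
          intro h
          rw [hT', Finset.mem_image] at h
          obtain ⟨b, hb, hba⟩ := h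
          exact hTγ b hb (by rw [hba]; exact ha)
        have h1 : (p.1 + q.1) a = 0 := (mem_bSupp T' _).mp hwT' a haT'
        have h2 : (bAct γ (p.1 + q.1)) s = (p.1 + q.1) a := by
          rw [bAct_apply, ← has, inv_smul_smul]
        rw [← hwfix, h2, h1]
      · exact (mem_bSupp T' _).mp hwT' s hs
    have hp1 : p.1 = q.1 := by
      have e : p.1 = (p.1 + q.1) + q.1 := by
        have h : (p.1 + q.1) + q.1 = p.1 + (q.1 + q.1) := by abel
        rw [h, bFun_add_self, add_zero]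
      rw [e, hw0, zero_add]
    have hp2 : p.2 = q.2 := by
      have hw0' : p.2 + q.2 = 0 := by rw [← hw]; exact hw0
      have e : p.2 = (p.2 + q.2) + q.2 := by
        have h : (p.2 + q.2) + q.2 = p.2 + (q.2 + q.2) := by abel
        rw [h, bFun_add_self, add_zero]
      rw [e, hw0', zero_add]
    exact Prod.ext hp1 hp2

theorem b_free (hfin : ∀ s : S, (MulAction.orbit Γ s).Finite)
    (hfree : ∀ γ : Γ, γ ≠ 1 → {s : S | γ • s ≠ s}.Infinite) (γ : Γ) (hγ : γ ≠ 1) {δ : ℝ}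
    (hδ : 0 < δ) : ∃ J : BLev Γ S, (proFix (bLevS J.1) γ : ℝ) ≤ δ * (bSupp J.1).card := by
  classical
  obtain ⟨t, ht⟩ : ∃ t : ℕ, (1 / 2 : ℝ) ^ t < δ := exists_pow_lt_of_lt_one hδ (by norm_num)
  obtain ⟨T, hTcard, hTγ⟩ := b_exists_moved hfree γ hγ t
  obtain ⟨J, hTJ⟩ := b_exists_hull hfin T
  refine ⟨J, ?_⟩
  obtain ⟨F, hFdef⟩ : ∃ F : Finset (S →₀ ZMod 2),
      F = (bSupp J.1).filter (fun x => bAct γ x = x) := ⟨_, rfl⟩
  have hFmem : ∀ x ∈ F, x ∈ bSupp J.1 ∧ bAct γ x = x := by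
    intro x hx
    rw [hFdef, Finset.mem_filter] at hx
    exact hx
  have h1 : proFix (bLevS J.1) γ ≤ F.card :=
    b_fix_le J γ F (fun x hx hfix => by rw [hFdef, Finset.mem_filter]; exact ⟨hx, hfix⟩)
  have h2 : F.card * 2 ^ T.card ≤ (bSupp J.1).card := b_fixed_count J γ T hTJ hTγ F hFmem
  rw [hTcard] at h2
  have h3 : (F.card : ℝ) * 2 ^ t ≤ ((bSupp J.1).card : ℝ) := by exact_mod_cast h2
  have h4 : (proFix (bLevS J.1) γ : ℝ) ≤ F.card := by exact_mod_cast h1
  have h5 : (0 : ℝ) < 2 ^ t := by positivity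
  have h6 : (F.card : ℝ) ≤ (1 / 2 : ℝ) ^ t * ((bSupp J.1).card : ℝ) := by
    rw [one_div, inv_pow, ← div_eq_inv_mul, le_div_iff₀ h5]
    exact h3
  have h7 : (0 : ℝ) ≤ ((bSupp J.1).card : ℝ) := Nat.cast_nonneg _
  calc (proFix (bLevS J.1) γ : ℝ) ≤ F.card := h4
    _ ≤ (1 / 2 : ℝ) ^ t * ((bSupp J.1).card : ℝ) := h6
    _ ≤ δ * ((bSupp J.1).card : ℝ) := mul_le_mul_of_nonneg_right ht.le h7

end Vale.Agent.Lib.P078
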