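import Vale.Agent.Lib.P078.ProModelDefs
import Vale.Agent.Lib.P078.Approx
import Vale.Agent.Lib.P078.HF.A3b
import Vale.Agent.Lib.P078.ProMod.M3
import Vale.Agent.Lib.P078.ProMod.M5
import Vale.Agent.Lib.P078.ProMod.M9

namespace Vale.Agent.Lib.P078

open scoped InnerProductSpace Matrix.Norms.L2Operator
open ContinuousLinearMap Filter Topology

variable {Γ S : Type} [Group Γ] [MulAction Γ S]

/-! ### M10 : the model is a crossed product by a free profinite action -/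

lemma taskModM10_proDiag_smul {H : Type*} [NormedAddCommGroup H] [InnerProductSpace ℂ H]
    [CompleteSpace H] {d : ℕ} (e : Fin d → H →L[ℂ] H) (c : ℂ) (f : Fin d → ℂ) :
    proDiag e (fun k => c * f k) = c • proDiag e f := by
  unfold proDiag
  rw [Finset.smul_sum]
  exact Finset.sum_congr rfl fun k _ => mul_smul c (f k) (e k)

theorem b_dense (hfin : ∀ s : S, (MulAction.orbit Γ s).Finite)
    {x : GHilb (BGrp Γ S) →L[ℂ] GHilb (BGrp Γ S)} (hx : x ∈ gM (BGrp Γ S)) {η : ℝ}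
    (hη : 0 < η) :
    ∃ J : BLev Γ S, ∃ l : List ((Fin (bSupp J.1).card → ℂ) × Γ),
      ‖(x - proOp (bLevE J.1) bU l) gOmega‖ ≤ η := by
  classical
  obtain ⟨F, hF⟩ := gM_dense hx hη
  obtain ⟨J, hJ⟩ := b_exists_hull (Γ := Γ) hfin (F.biUnion fun g => g.fst.support)
  have hmem : ∀ g ∈ F, g.fst ∈ bSupp J.1 := by
    intro g hg
    rw [mem_bSupp]
    intro s hs
    rw [← Finsupp.notMem_support_iff]
    intro hsupp
    exact hs (hJ (Finset.mem_biUnion.mpr ⟨g, hg, hsupp⟩))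
  have hex : ∀ g : BGrp Γ S, ∃ f : Fin (bSupp J.1).card → ℂ,
      g ∈ F → bZ (Γ := Γ) g.fst = proDiag (bLevE J.1) f := by
    intro g
    by_cases hg : g ∈ F
    · obtain ⟨f, hf⟩ := b_zdiag (Γ := Γ) J.1 (hmem g hg)
      exact ⟨f, fun _ => hf⟩
    · exact ⟨0, fun h => absurd h hg⟩
  choose f hf using hex
  refine ⟨J, F.toList.map fun g =>
    ((fun k => (x gOmega : BGrp Γ S → ℂ) g * f g k), g.snd), ?_⟩
  have hop : proOp (bLevE J.1) bU (F.toList.map fun g =>
      ((fun k => (x gOmega : BGrp Γ S → ℂ) g * f g k), g.snd)) =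
      ∑ g ∈ F, (x gOmega : BGrp Γ S → ℂ) g • gLam g := by
    unfold proOp
    rw [List.map_map, Finset.sum_map_toList]
    refine Finset.sum_congr rfl fun g hg => ?_
    show proDiag (bLevE J.1) (fun k => (x gOmega : BGrp Γ S → ℂ) g * f g k) * bU g.snd = _
    rw [taskModM10_proDiag_smul, smul_mul_assoc, ← hf g hg, ← gLam_eq_bZ_bU]
  rw [hop]
  exact hF

theorem b_isProSystem (hfin : ∀ s : S, (MulAction.orbit Γ s).Finite)
    (hfree : ∀ γ : Γ, γ ≠ 1 → {s : S | γ • s ≠ s}.Infinite) :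
    IsProSystem Γ (bA Γ S) (gM (BGrp Γ S)) gOmega (bU : Γ → _)
      (fun J : BLev Γ S => (bSupp J.1).card) (fun J => bLevE J.1) (fun J => bLevS J.1) := by
  classical
  refine ⟨⟨⟨∅, fun γ s hs => absurd hs (Finset.notMem_empty s)⟩⟩, b_isProRep,
    fun J => b_isProLevel J, ?_, fun γ hγ δ hδ => b_free hfin hfree γ hγ hδ⟩
  intro i j
  refine ⟨⟨i.1 ∪ j.1, ?_⟩, fun m => b_refine Finset.subset_union_left m,
    fun m => b_refine Finset.subset_union_right m⟩
  intro γ s hs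
  rcases Finset.mem_union.mp hs with h | h
  · exact Finset.mem_union_left _ (i.2 γ s h)
  · exact Finset.mem_union_right _ (j.2 γ s h)

theorem b_isProfiniteOver (hfin : ∀ s : S, (MulAction.orbit Γ s).Finite)
    (hfree : ∀ γ : Γ, γ ≠ 1 → {s : S | γ • s ≠ s}.Infinite) :
    IsProfiniteOver Γ (bA Γ S) (gM (BGrp Γ S)) gOmega :=
  ⟨bU, BLev Γ S, fun J => (bSupp J.1).card, fun J => bLevE J.1, fun J => bLevS J.1,
    b_isProSystem hfin hfree, fun _ hx _ hη => b_dense hfin hx hη⟩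


theorem b_witness (Γ S : Type) [Group Γ] [MulAction Γ S]
    (hfin : ∀ s : S, (MulAction.orbit Γ s).Finite)
    (hfree : ∀ γ : Γ, γ ≠ 1 → {s : S | γ • s ≠ s}.Infinite) :
    ∃ (H : Type) (_ : NormedAddCommGroup H) (_ : InnerProductSpace ℂ H) (_ : CompleteSpace H)
      (A M : VonNeumannAlgebra H) (Ω : H),
      IsMASA A M ∧ IsTraceVector M Ω ∧ IsSeparating M Ω ∧ IsProfiniteOver Γ A M Ω :=
  ⟨GHilb (BGrp Γ S), inferInstance, inferInstance, inferInstance, bA Γ S, gM (BGrp Γ S),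
    gOmega, bA_masa hfree, gM_trace, gM_separating, b_isProfiniteOver hfin hfree⟩

end Vale.Agent.Lib.P078
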